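import Vale.Agent.Lib.P064.Main

/-!
P064: there is a universal constant `C` such that `p̃_E(n,H) ≤ C p_E(n,H) log n` and
`p_c(n,H) ≤ C p_E(n,H) (log n)^2` for all `n ≥ 2` and every graph `H` with at least one edge and at
most `n` vertices.
-/

namespace Vale.Agent.Results.P064.LogSquared

open Vale.Agent.P064

theorem result : ∃ C : ℝ, 0 < C ∧ ∀ (n : ℕ) (V : Type) [Fintype V] (H : SimpleGraph V),
    2 ≤ n → Fintype.card V ≤ n → H ≠ ⊥ →
      pEt n H ≤ C * pE n H * Real.log n ∧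
      pc n H ≤ C * pE n H * (Real.log n) ^ 2 := by
  refine ⟨589824, by norm_num, fun n V _ H hn hV hH => ?_⟩
  obtain ⟨h1, h2⟩ := main H hn hV hH
  refine ⟨h1.trans ?_, h2⟩
  have h3 : 0 ≤ pE n H := Real.sInf_nonneg (fun x hx => hx.1)
  have h4 : 0 ≤ Real.log n := Real.log_natCast_nonneg n
  have h5 : 0 ≤ pE n H * Real.log n := mul_nonneg h3 h4
  nlinarith

end Vale.Agent.Results.P064.LogSquared
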