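import Vale.Agent.Lib.P064.Full.Main

/-!
P064: the second Kahn-Kalai conjecture. There is a universal constant `C` such that
`p_c(n,H) ≤ C p_E(n,H) log n` for all `n ≥ 2` and every graph `H` with at least one edge and at
most `n` vertices.
-/

namespace Vale.Agent.Results.P064.SecondKahnKalai

open Vale.Agent.P064

theorem result : ∃ C : ℝ, 0 < C ∧ ∀ (n : ℕ) (V : Type) [Fintype V] (H : SimpleGraph V),
    2 ≤ n → Fintype.card V ≤ n → H ≠ ⊥ → pc n H ≤ C * pE n H * Real.log n :=
  ⟨2 ^ 56, by norm_num, fun _ _ _ H hn hV hH => main_full H hn hV hH⟩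

end Vale.Agent.Results.P064.SecondKahnKalai
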